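import Vale.Agent.P088.R2.H850.DM.N1

/-!
# P088, SOLV row 6: the Hardy type inequality at the boundary of the half box
-/

open MeasureTheory Set Filter Topology
open scoped ContDiff ENNReal NNReal

noncomputable section

namespace Vale.Agent.P088.R2.H850.DM

variable {n : ℕ} [NeZero n]

/-- The open half box. -/
def Uo (n : ℕ) [NeZero n] (r : ℝ) : Set (EuclideanSpace ℝ (Fin n)) := {y | 0 < y 0 ∧ ∀ i, |y i| < r}

/-- The open half space. -/
def Hs (n : ℕ) [NeZero n] : Set (EuclideanSpace ℝ (Fin n)) := {y | 0 < y 0}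

/-- The slab `y 0 < e`. -/
def Sl (n : ℕ) [NeZero n] (e : ℝ) : Set (EuclideanSpace ℝ (Fin n)) := {y | y 0 < e}

omit [NeZero n] in
theorem cont_co (i : Fin n) : Continuous fun y : EuclideanSpace ℝ (Fin n) => y i := by fun_prop

theorem isOpen_Hs : IsOpen (Hs n) := isOpen_lt continuous_const (cont_co 0)

theorem isOpen_Sl (e : ℝ) : IsOpen (Sl n e) := isOpen_lt (cont_co 0) continuous_const

theorem isOpen_Uo (r : ℝ) : IsOpen (Uo n r) := by
  have : Uo n r = {y | 0 < y 0} ∩ ⋂ i, {y | |y i| < r} := by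
    ext y; simp [Uo]
  rw [this]
  exact (isOpen_lt continuous_const (cont_co 0)).inter
    (isOpen_iInter_of_finite fun i => isOpen_lt (cont_co i).abs continuous_const)

theorem Uo_sub {r s : ℝ} (h : r ≤ s) : Uo n r ⊆ Uo n s := fun _ hy =>
  ⟨hy.1, fun i => (hy.2 i).trans_le h⟩

theorem Uo_sub_Hs {r : ℝ} : Uo n r ⊆ Hs n := fun _ hy => hy.1

theorem meas_Uo (r : ℝ) : MeasurableSet (Uo n r) := (isOpen_Uo r).measurableSet

theorem meas_Hs : MeasurableSet (Hs n) := isOpen_Hs.measurableSet

theorem meas_Sl (e : ℝ) : MeasurableSet (Sl n e) := (isOpen_Sl e).measurableSet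

omit [NeZero n] in
/-- A function that is continuous on an open set, extended by zero, is measurable. -/
theorem meas_ind0 {f : EuclideanSpace ℝ (Fin n) → ℝ} {O : Set (EuclideanSpace ℝ (Fin n))}
    (hO : IsOpen O) (h1 : ContinuousOn f O) :
    Measurable (O.indicator fun y => ENNReal.ofReal (f y ^ 2)) := by
  refine measurable_of_restrict_of_restrict_compl hO.measurableSet ?_ ?_
  · have : O.domRestrict (O.indicator fun y => ENNReal.ofReal (f y ^ 2)) =
        fun y : O => ENNReal.ofReal (O.domRestrict f y ^ 2) := by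
      funext y
      simp [Set.domRestrict_apply, y.2]
    rw [this]
    exact ((h1.domRestrict.pow 2).measurable).ennreal_ofReal
  · have : Oᶜ.domRestrict (O.indicator fun y => ENNReal.ofReal (f y ^ 2)) = fun _ => 0 := by
      funext y
      simp only [Set.domRestrict_apply]
      exact Set.indicator_of_notMem y.2 _
    rw [this]
    exact measurable_const

/-- (C) The Hardy type inequality. -/
theorem hardy {w : EuclideanSpace ℝ (Fin n) → ℝ} {r : ℝ} (hw : ContDiffOn ℝ 1 w (Uo n r))
    {d e : ℝ} (hd : 0 < d) (hde : d ≤ e) (her : e ≤ r) :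
    ∫⁻ y in Uo n r ∩ Sl n e, ENNReal.ofReal (w y ^ 2) ≤
      ENNReal.ofReal (2 * e / d) * (∫⁻ y in Uo n r ∩ Sl n d, ENNReal.ofReal (w y ^ 2)) +
      ENNReal.ofReal (2 * e ^ 2) * (∫⁻ y in Uo n r ∩ Sl n e,
        ENNReal.ofReal (fderiv ℝ w y (EuclideanSpace.single 0 1) ^ 2)) := by
  have hUe : IsOpen (Uo n r ∩ Sl n e) := (isOpen_Uo r).inter (isOpen_Sl e)
  have hUd : IsOpen (Uo n r ∩ Sl n d) := (isOpen_Uo r).inter (isOpen_Sl d)
  set w' : EuclideanSpace ℝ (Fin n) → ℝ := fun y => fderiv ℝ w y (EuclideanSpace.single 0 1) with hw'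
  have hc' : ContinuousOn w' (Uo n r) :=
    (hw.continuousOn_fderiv_of_isOpen (isOpen_Uo r) le_rfl).clm_apply continuousOn_const
  have m1 := meas_ind0 hUe (hw.continuousOn.mono inter_subset_left)
  have m2 := meas_ind0 hUd (hw.continuousOn.mono inter_subset_left)
  have m3 := meas_ind0 hUe (hc'.mono inter_subset_left)
  rw [← lintegral_indicator hUe.measurableSet, ← lintegral_indicator hUd.measurableSet,
    ← lintegral_indicator hUe.measurableSet, ← lintegral_const_mul _ m2,
    ← lintegral_const_mul _ m3, ← lintegral_add_left (m2.const_mul _)]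
  refine slice_le 0 m1 ((m2.const_mul _).add (m3.const_mul _)) fun y hy0 => ?_
  set z : ℝ → EuclideanSpace ℝ (Fin n) := fun t => y + t • EuclideanSpace.single 0 (1 : ℝ) with hz
  have hz0 : ∀ t, z t 0 = t := fun t => by simp [hz, hy0]
  have hzj : ∀ t j, j ≠ 0 → z t j = y j := fun t j hj => by simp [hz, hj]
  by_cases hyr : ∀ j, j ≠ 0 → |y j| < r
  · -- the line meets the box
    have hin : ∀ t, 0 < t → t < r → z t ∈ Uo n r := by
      intro t ht htr
      refine ⟨by rw [hz0]; exact ht, fun i => ?_⟩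
      by_cases hi : i = 0
      · rw [hi, hz0, abs_of_pos ht]; exact htr
      · rw [hzj t i hi]; exact hyr i hi
    have hmem : ∀ c ≤ r, ∀ t, z t ∈ Uo n r ∩ Sl n c ↔ t ∈ Ioo 0 c := by
      intro c hc t
      refine ⟨fun h => ⟨by have := h.1.1; rwa [hz0] at this, by
        have h2 : z t 0 < c := h.2
        rwa [hz0] at h2⟩, fun h => ⟨hin t h.1 (h.2.trans_le hc), by
        change z t 0 < c
        rw [hz0]; exact h.2⟩⟩
    have hind : ∀ c ≤ r, ∀ f : EuclideanSpace ℝ (Fin n) → ℝ,
        (fun t => (Uo n r ∩ Sl n c).indicator (fun y => ENNReal.ofReal (f y ^ 2)) (z t)) =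
        (Ioo 0 c).indicator (fun t => ENNReal.ofReal (f (z t) ^ 2)) := by
      intro c hc f
      funext t
      by_cases ht : t ∈ Ioo 0 c
      · rw [indicator_of_mem ht, indicator_of_mem ((hmem c hc t).2 ht)]
      · rw [indicator_of_notMem ht, indicator_of_notMem (fun h => ht ((hmem c hc t).1 h))]
    have hder : ∀ t ∈ Ioo 0 e, HasDerivAt (fun t => w (z t)) (w' (z t)) t := by
      intro t ht
      have e1 : HasDerivAt z (EuclideanSpace.single 0 (1 : ℝ)) t := by
        have h := ((hasDerivAt_id t).smul_const (EuclideanSpace.single (0 : Fin n) (1 : ℝ))).const_add y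
        rw [one_smul] at h
        exact h
      have e2 : HasFDerivAt w (fderiv ℝ w (z t)) (z t) :=
        ((hw.contDiffAt ((isOpen_Uo r).mem_nhds
          (hin t ht.1 (ht.2.trans_le her)))).differentiableAt one_ne_zero).hasFDerivAt
      exact e2.comp_hasDerivAt t e1
    have hcz : ContinuousOn (fun t => w' (z t)) (Ioo 0 e) :=
      hc'.comp (by fun_prop) fun t ht => hin t ht.1 (ht.2.trans_le her)
    have H := hardy1 hd hde hder hcz
    have i1 := hind e her w
    have i2 := hind d (hde.trans her) w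
    have i3 := hind e her w'
    calc ∫⁻ t, (Uo n r ∩ Sl n e).indicator (fun y => ENNReal.ofReal (w y ^ 2)) (z t)
        = ∫⁻ t in Ioo 0 e, ENNReal.ofReal (w (z t) ^ 2) := by
          rw [i1, lintegral_indicator measurableSet_Ioo]
      _ ≤ _ := H
      _ = ENNReal.ofReal (2 * e / d) *
            (∫⁻ t, (Uo n r ∩ Sl n d).indicator (fun y => ENNReal.ofReal (w y ^ 2)) (z t)) +
          ENNReal.ofReal (2 * e ^ 2) *
            (∫⁻ t, (Uo n r ∩ Sl n e).indicator (fun y => ENNReal.ofReal (w' y ^ 2)) (z t)) := by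
          rw [i2, i3, lintegral_indicator measurableSet_Ioo, lintegral_indicator measurableSet_Ioo]
      _ = _ := by
          have hzm : Measurable z := by
            have : Continuous z := by fun_prop
            exact this.measurable
          have m2' : Measurable fun t =>
            (Uo n r ∩ Sl n d).indicator (fun y => ENNReal.ofReal (w y ^ 2)) (z t) := m2.comp hzm
          have m3' : Measurable fun t =>
            (Uo n r ∩ Sl n e).indicator (fun y => ENNReal.ofReal (w' y ^ 2)) (z t) := m3.comp hzm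
          rw [← lintegral_const_mul _ m2', ← lintegral_const_mul _ m3',
            ← lintegral_add_left (m2'.const_mul _)]
  · push Not at hyr
    obtain ⟨j, hj, hjr⟩ := hyr
    have : ∀ t, z t ∉ Uo n r ∩ Sl n e := by
      intro t ht
      have := ht.1.2 j
      rw [hzj t j hj] at this
      exact absurd this (not_lt.2 hjr)
    have e0 : ∀ t, (Uo n r ∩ Sl n e).indicator (fun y => ENNReal.ofReal (w y ^ 2)) (z t) = 0 :=
      fun t => indicator_of_notMem (this t) _
    change ∫⁻ t, (Uo n r ∩ Sl n e).indicator (fun y => ENNReal.ofReal (w y ^ 2)) (z t) ≤ _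
    simp only [e0, lintegral_zero]
    exact zero_le

/-- The trace condition: `∫_{y 0 < e} w ^ 2 ≤ K e ^ 2`. -/
def Tr (r : ℝ) (w : EuclideanSpace ℝ (Fin n) → ℝ) : Prop :=
  ∃ K : ℝ≥0, ∀ e > 0, ∫⁻ y in Uo n r ∩ {y | y 0 < e}, ENNReal.ofReal (w y ^ 2) ≤
    K * ENNReal.ofReal (e ^ 2)

/-- (C) The Hardy type inequality for functions with trace zero. -/
theorem hardy_tr {w : EuclideanSpace ℝ (Fin n) → ℝ} {r : ℝ} (hr : 0 < r)
    (hw : ContDiffOn ℝ 1 w (Uo n r)) (ht : Tr r w) {e : ℝ} (he : 0 < e) :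
    ∫⁻ y in Uo n r ∩ {y | y 0 < e}, ENNReal.ofReal (w y ^ 2) ≤
      ENNReal.ofReal (2 * e ^ 2) * (∫⁻ y in Uo n r ∩ {y | y 0 < e},
        ENNReal.ofReal (fderiv ℝ w y (EuclideanSpace.single 0 1) ^ 2)) := by
  -- first for `e ≤ r`
  have h1 : ∀ e, 0 < e → e ≤ r → ∫⁻ y in Uo n r ∩ {y | y 0 < e}, ENNReal.ofReal (w y ^ 2) ≤
      ENNReal.ofReal (2 * e ^ 2) * (∫⁻ y in Uo n r ∩ {y | y 0 < e},
        ENNReal.ofReal (fderiv ℝ w y (EuclideanSpace.single 0 1) ^ 2)) := by
    intro e he her
    obtain ⟨K, hK⟩ := ht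
    refine ENNReal.le_of_forall_pos_le_add fun ε hε _ => ?_
    have hex : ∃ d, 0 < d ∧ d ≤ e ∧ 2 * e * K * d ≤ ε := by
      refine ⟨min e (ε / (2 * e * K + 1)), lt_min he (by positivity), min_le_left _ _, ?_⟩
      have h2 : min e (ε / (2 * e * K + 1)) ≤ ε / (2 * e * K + 1) := min_le_right _ _
      have h3 : (0 : ℝ) ≤ 2 * e * K := by positivity
      have h4 : (0 : ℝ) < 2 * e * K + 1 := by positivity
      calc 2 * e * K * min e (ε / (2 * e * K + 1)) ≤ 2 * e * K * (ε / (2 * e * K + 1)) := by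
            gcongr
        _ ≤ (2 * e * K + 1) * (ε / (2 * e * K + 1)) := by
            have : (0 : ℝ) ≤ ε / (2 * e * K + 1) := by positivity
            nlinarith
        _ = ε := by field_simp
    obtain ⟨d, hd, hde, hdK⟩ := hex
    refine (hardy hw hd hde her).trans ?_
    rw [add_comm]
    refine add_le_add le_rfl ?_
    calc ENNReal.ofReal (2 * e / d) * (∫⁻ y in Uo n r ∩ Sl n d, ENNReal.ofReal (w y ^ 2))
        ≤ ENNReal.ofReal (2 * e / d) * (K * ENNReal.ofReal (d ^ 2)) := by
          gcongr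
          exact hK d hd
      _ = ENNReal.ofReal (2 * e * K * d) := by
          rw [show (K : ℝ≥0∞) = ENNReal.ofReal (K : ℝ) by simp, ← ENNReal.ofReal_mul (by positivity),
            ← ENNReal.ofReal_mul (by positivity)]
          congr 1
          field_simp
      _ ≤ ENNReal.ofReal ε := ENNReal.ofReal_le_ofReal hdK
      _ = ε := by simp
  rcases le_total e r with h | h
  · exact h1 e he h
  · have e1 : Uo n r ∩ {y | y 0 < e} = Uo n r ∩ {y | y 0 < r} := by
      ext y
      simp only [mem_inter_iff, mem_ofPred_eq]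
      exact and_congr_right fun hy => ⟨fun _ => (le_abs_self _).trans_lt (hy.2 0),
        fun h2 => h2.trans_le h⟩
    rw [e1]
    refine (h1 r hr le_rfl).trans ?_
    gcongr

end Vale.Agent.P088.R2.H850.DM
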