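import Vale.Agent.P088.R2.H850.DM.DqB
import Vale.Agent.P088.R2.H558.DM.DqSys
import Vale.Agent.P088.R2.H856.DM.Row6

/-!
# P088, SOLV row 6: the uniform bound, unconditional
-/

noncomputable section

namespace Vale.Agent.P088.R2.H850.DM

open Vale.Agent.P088.DC

theorem dqS (n : ℕ) [NeZero n] : DqS n := by
  intro ι _ r r₂ a W ha hW h12
  obtain ⟨lam, hl, L, hL, h⟩ := R2.H558.DM.dq_sys ha hW h12
  refine ⟨lam, hl, L, hL, fun t s ht hs0 hs => ?_⟩
  obtain ⟨_, c2, _, _, c5, c6, c7, c8, c9⟩ := h t s ht hs0 hs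
  exact ⟨fun i α y => ((∑ j, a i j (y + s • ee t) * dd j (W α) (y + s • ee t)) -
        ∑ j, a i j y * dd j (W α) y) / s,
    fun i α y => ∑ j, ((a i j (y + s • ee t) - a i j y) / s) * dd j (W α) y,
    fun α y => (∑ i, dd i (fun y => ∑ j, a i j y * dd j (W α) y) (y + s • ee t) -
          ∑ i, dd i (fun y => ∑ j, a i j y * dd j (W α) y) y) / s, c2, c5, c6, c7, c8, c9⟩

/-- The uniform bound of the difference quotients. -/
theorem dqB (n : ℕ) [NeZero n] : R2.H856.DM.Loc.DqB n :=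
  fun _ _ _ _ _ _ ha hW h0 h1 _ ht => dq_bound (dqS n) ha hW h0 h1 ht

end Vale.Agent.P088.R2.H850.DM
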