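import Vale.Agent.P088.R2.H380.DM.Ibp

/-!
# P088, SOLV row 6: the cut-off functions
-/

open MeasureTheory Set Filter Topology
open scoped ContDiff ENNReal NNReal

noncomputable section

namespace Vale.Agent.P088.R2.H850.DM

open Vale.Agent.P088.DC

/-- The smooth transition has bounded derivative. -/
theorem st_bd : ∃ K : ℝ, 0 ≤ K ∧ ∀ x, |deriv Real.smoothTransition x| ≤ K := by
  have hc : Continuous (deriv Real.smoothTransition) :=
    (Real.smoothTransition.contDiff (n := 1)).continuous_deriv le_rfl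
  obtain ⟨K, hK⟩ := isCompact_Icc.exists_bound_of_continuousOn (s := Icc (0 : ℝ) 1) hc.continuousOn
  refine ⟨max K 0, le_max_right _ _, fun x => ?_⟩
  by_cases hx : x ∈ Icc (0 : ℝ) 1
  · exact (hK x hx).trans (le_max_left _ _)
  · have : deriv Real.smoothTransition x = 0 := by
      rw [mem_Icc, not_and_or, not_le, not_le] at hx
      rcases hx with hx | hx
      · refine IsLocalMin.deriv_eq_zero (Eventually.of_forall fun z => ?_)
        rw [Real.smoothTransition.zero_of_nonpos hx.le]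
        exact Real.smoothTransition.nonneg z
      · refine IsLocalMax.deriv_eq_zero (Eventually.of_forall fun z => ?_)
        rw [Real.smoothTransition.one_of_one_le hx.le]
        exact Real.smoothTransition.le_one z
    rw [this, abs_zero]
    exact le_max_right _ _

theorem st_der {x : ℝ} (hx : 1 ≤ x) : deriv Real.smoothTransition x = 0 := by
  refine IsLocalMax.deriv_eq_zero (Eventually.of_forall fun z => ?_)
  rw [Real.smoothTransition.one_of_one_le hx]
  exact Real.smoothTransition.le_one z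

variable {n : ℕ}

/-- A bump function of the box. -/
theorem exists_box (n : ℕ) {r₁ r₂ : ℝ} (h0 : 0 < r₁) (h12 : r₁ < r₂) :
    ∃ β : En n → ℝ, ContDiff ℝ 1 β ∧ (∀ y, 0 ≤ β y ∧ β y ≤ 1) ∧
      (∀ y, (∀ i, |y i| ≤ r₁) → β y = 1) ∧ ∀ y, β y ≠ 0 → ∀ i, |y i| ≤ r₂ := by
  set η : ℝ → ℝ := fun s => Real.smoothTransition ((r₂ ^ 2 - s ^ 2) / (r₂ ^ 2 - r₁ ^ 2)) with hη
  have hp : 0 < r₂ ^ 2 - r₁ ^ 2 := by nlinarith
  have hc : ContDiff ℝ 1 η := by
    refine Real.smoothTransition.contDiff.comp ?_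
    exact (contDiff_const.sub (contDiff_id.pow 2)).div_const _
  refine ⟨fun y => ∏ i, η (y i), ?_, fun y => ⟨?_, ?_⟩, fun y hy => ?_, fun y hy i => ?_⟩
  · refine contDiff_prod fun i _ => hc.comp ?_
    fun_prop
  · exact Finset.prod_nonneg fun i _ => Real.smoothTransition.nonneg _
  · exact Finset.prod_le_one (fun i _ => Real.smoothTransition.nonneg _)
      fun i _ => Real.smoothTransition.le_one _
  · refine Finset.prod_eq_one fun i _ => ?_
    refine Real.smoothTransition.one_of_one_le ?_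
    rw [le_div_iff₀ hp]
    have := sq_le_sq' (by linarith [abs_le.1 (hy i)]) ((abs_le.1 (hy i)).2)
    linarith
  · by_contra hi
    push Not at hi
    refine hy (Finset.prod_eq_zero (Finset.mem_univ i) ?_)
    refine Real.smoothTransition.zero_of_nonpos ?_
    refine div_nonpos_of_nonpos_of_nonneg ?_ hp.le
    have : r₂ ^ 2 < y i ^ 2 := by
      rw [← sq_abs (y i)]
      exact pow_lt_pow_left₀ hi (by linarith) two_ne_zero
    linarith

variable [NeZero n]

/-- (E) The cut-off functions. -/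
theorem cutoff {r₁ r₂ r : ℝ} (h0 : 0 < r₁) (h12 : r₁ < r₂) (h2 : r₂ ≤ r) :
    ∃ M : ℝ, 0 ≤ M ∧ ∀ ε : ℝ, 0 < ε → ∃ φ : En n → ℝ, Cut (Uh r) φ ∧ (∀ y, 0 ≤ φ y ∧ φ y ≤ 1) ∧
      (∀ y ∈ Uh r₁, 2 * ε ≤ y 0 → φ y = 1) ∧ (∀ y, φ y ≠ 0 → y ∈ Uh r₂) ∧
      (∀ i y, dd i φ y ^ 2 ≤ M + if y 0 < 2 * ε then M / ε ^ 2 else 0) ∧
      ∀ i y, dd i φ y ≠ 0 → y ∈ Uh r₂ := by
  set r₃ := (r₁ + r₂) / 2 with hr3
  have h13 : r₁ < r₃ := by rw [hr3]; linarith
  have h32 : r₃ < r₂ := by rw [hr3]; linarith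
  obtain ⟨β, bc, b01, b1, b2⟩ := exists_box n h0 h13
  obtain ⟨K, hK0, hK⟩ := st_bd
  -- compact support of `β`
  have hKs : IsCompact {y : En n | ∀ i, |y i| ≤ r₃} := by
    have hcl : IsClosed {y : En n | ∀ i, |y i| ≤ r₃} := by
      have : {y : En n | ∀ i, |y i| ≤ r₃} = ⋂ i, {y | |y i| ≤ r₃} := by ext; simp
      rw [this]
      exact isClosed_iInter fun i => isClosed_le (by fun_prop) continuous_const
    refine Metric.isCompact_of_isClosed_isBounded hcl ?_
    refine (Metric.isBounded_iff_subset_closedBall 0).2 ⟨√(n * r₃ ^ 2), fun y hy => ?_⟩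
    rw [mem_closedBall_zero_iff, EuclideanSpace.norm_eq]
    refine Real.sqrt_le_sqrt ?_
    calc ∑ i, ‖y i‖ ^ 2 ≤ ∑ _i : Fin n, r₃ ^ 2 := by
          refine Finset.sum_le_sum fun i _ => ?_
          exact pow_le_pow_left₀ (norm_nonneg _) (hy i) 2
      _ = n * r₃ ^ 2 := by simp
  have bts : tsupport β ⊆ {y : En n | ∀ i, |y i| ≤ r₃} :=
    closure_minimal (fun y hy => b2 y hy) hKs.isClosed
  have bcs : HasCompactSupport β := hKs.of_isClosed_subset (isClosed_tsupport β) bts
  have hbd : ∀ i : Fin n, ∃ M : ℝ, ∀ y, |dd i β y| ≤ M := by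
    intro i
    have h1 : Continuous (dd i β) := (bc.continuous_fderiv (by norm_num)).clm_apply continuous_const
    have h2 : HasCompactSupport (dd i β) := bcs.fderiv_apply ℝ (ee i)
    obtain ⟨M, hM⟩ := h2.exists_bound_of_continuous h1
    exact ⟨M, hM⟩
  choose M1 hM1 using hbd
  set M2 := ∑ i, |M1 i| with hM2
  have hM2' : ∀ i y, |dd i β y| ≤ M2 := fun i y => (hM1 i y).trans ((le_abs_self _).trans
    (Finset.single_le_sum (f := fun i => |M1 i|) (fun i _ => abs_nonneg _) (Finset.mem_univ i)))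
  have hM20 : 0 ≤ M2 := Finset.sum_nonneg fun i _ => abs_nonneg _
  refine ⟨2 * M2 ^ 2 + 2 * K ^ 2, by positivity, fun ε hε => ?_⟩
  set κ : En n → ℝ := fun y => Real.smoothTransition (y 0 / ε - 1) with hκ
  have kc : ContDiff ℝ 1 κ := by
    refine Real.smoothTransition.contDiff.comp ?_
    fun_prop
  have k0 : ∀ y, 0 ≤ κ y ∧ κ y ≤ 1 := fun y =>
    ⟨Real.smoothTransition.nonneg _, Real.smoothTransition.le_one _⟩
  set φ : En n → ℝ := fun y => β y * κ y with hφ
  have hcl : IsClosed {y : En n | ε ≤ y 0} := isClosed_le continuous_const (by fun_prop)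
  have hts : tsupport φ ⊆ {y : En n | ∀ i, |y i| ≤ r₃} ∩ {y | ε ≤ y 0} := by
    refine closure_minimal (fun y hy => ?_) (hKs.isClosed.inter hcl)
    have hb : β y ≠ 0 := fun h => hy (by simp [hφ, h])
    have hk : κ y ≠ 0 := fun h => hy (by simp [hφ, h])
    refine ⟨b2 y hb, ?_⟩
    by_contra hlt
    simp only [mem_ofPred_eq, not_le] at hlt
    refine hk (Real.smoothTransition.zero_of_nonpos ?_)
    have : y 0 / ε ≤ 1 := (div_le_one hε).2 hlt.le
    linarith
  have hsub : {y : En n | ∀ i, |y i| ≤ r₃} ∩ {y | ε ≤ y 0} ⊆ Uh r₂ := fun y hy =>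
    ⟨hε.trans_le hy.2, fun i => (hy.1 i).trans_lt h32⟩
  have hU : Uh (n := n) r₂ ⊆ Uh r := fun y hy => ⟨hy.1, fun i => (hy.2 i).trans_le h2⟩
  have hder : ∀ i y, dd i φ y = dd i β y * κ y + β y * dd i κ y := by
    intro i y
    have h1 : DifferentiableAt ℝ β y := (bc.differentiable (by norm_num)) y
    have h2 : DifferentiableAt ℝ κ y := (kc.differentiable (by norm_num)) y
    have := fderiv_fun_mul h1 h2
    simp only [dd, hφ, this, add_apply, smul_apply, smul_eq_mul]
    ring
  have hdk : ∀ i y, dd i κ y =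
      deriv Real.smoothTransition (y 0 / ε - 1) * ((if i = 0 then 1 else 0) / ε) := by
    intro i y
    have e1 : HasFDerivAt (fun y : En n => y 0 / ε - 1)
        ((ε⁻¹) • (EuclideanSpace.proj (0 : Fin n) : En n →L[ℝ] ℝ)) y := by
      have := ((EuclideanSpace.proj (0 : Fin n) : En n →L[ℝ] ℝ).hasFDerivAt (x := y)).const_mul ε⁻¹
      refine (this.sub_const 1).congr_of_eventuallyEq (Eventually.of_forall fun z => ?_)
      change z 0 / ε - 1 = ε⁻¹ * z 0 - 1
      rw [div_eq_inv_mul]
    have e2 : HasDerivAt Real.smoothTransition (deriv Real.smoothTransition (y 0 / ε - 1))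
        (y 0 / ε - 1) :=
      ((Real.smoothTransition.contDiff (n := 1)).differentiable (by norm_num) _).hasDerivAt
    have e3 := e2.comp_hasFDerivAt y e1
    have e4 : fderiv ℝ κ y = _ := e3.fderiv
    have e5 : (EuclideanSpace.proj (0 : Fin n) : En n →L[ℝ] ℝ) (ee i) = if i = 0 then 1 else 0 := by
      change (ee i) 0 = _
      by_cases hi : i = 0
      · subst hi; simp
      · simp [hi, Ne.symm hi]
    simp only [dd, e4, smul_apply, smul_eq_mul, e5]
    ring
  refine ⟨φ, ⟨bc.mul kc, ?_, ?_⟩, fun y => ⟨mul_nonneg (b01 y).1 (k0 y).1, ?_⟩, fun y hy hy2 => ?_,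
    fun y hy => ?_, fun i y => ?_, fun i y hy => ?_⟩
  · exact (hKs.inter_right hcl).of_isClosed_subset (isClosed_tsupport φ) hts
  · exact (hts.trans hsub).trans hU
  · calc β y * κ y ≤ 1 * 1 := mul_le_mul (b01 y).2 (k0 y).2 (k0 y).1 zero_le_one
      _ = 1 := one_mul 1
  · simp only [hφ]
    rw [b1 y fun i => (hy.2 i).le, one_mul]
    refine Real.smoothTransition.one_of_one_le ?_
    rw [le_sub_iff_add_le, le_div_iff₀ hε]
    linarith
  · exact hsub (hts (subset_closure hy))
  · rw [hder, hdk]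
    have e1 : |dd i β y * κ y| ≤ M2 := by
      rw [abs_mul, abs_of_nonneg (k0 y).1]
      calc |dd i β y| * κ y ≤ M2 * 1 := mul_le_mul (hM2' i y) (k0 y).2 (k0 y).1 hM20
        _ = M2 := mul_one _
    have e1' : (dd i β y * κ y) ^ 2 ≤ M2 ^ 2 := by
      rw [← sq_abs]; exact pow_le_pow_left₀ (abs_nonneg _) e1 2
    by_cases hy : y 0 < 2 * ε
    · rw [if_pos hy]
      have e2 : |β y * (deriv Real.smoothTransition (y 0 / ε - 1) *
          ((if i = 0 then 1 else 0) / ε))| ≤ K / ε := by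
        rw [abs_mul, abs_mul, abs_of_nonneg (b01 y).1]
        have e3 : |((if i = 0 then (1 : ℝ) else 0) / ε)| ≤ 1 / ε := by
          split_ifs
          · rw [abs_of_pos (by positivity)]
          · simp; positivity
        calc β y * (|deriv Real.smoothTransition (y 0 / ε - 1)| *
            |((if i = 0 then (1 : ℝ) else 0) / ε)|) ≤ 1 * (K * (1 / ε)) := by
              refine mul_le_mul (b01 y).2 ?_ (by positivity) zero_le_one
              exact mul_le_mul (hK _) e3 (abs_nonneg _) hK0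
          _ = K / ε := by ring
      have e2' : (β y * (deriv Real.smoothTransition (y 0 / ε - 1) *
          ((if i = 0 then 1 else 0) / ε))) ^ 2 ≤ K ^ 2 / ε ^ 2 := by
        rw [← sq_abs, ← div_pow]; exact pow_le_pow_left₀ (abs_nonneg _) e2 2
      have e4 : 2 * K ^ 2 / ε ^ 2 ≤ (2 * M2 ^ 2 + 2 * K ^ 2) / ε ^ 2 := by
        gcongr
        nlinarith [sq_nonneg M2]
      have e5 : 2 * (K ^ 2 / ε ^ 2) = 2 * K ^ 2 / ε ^ 2 := by ring
      nlinarith [sq_nonneg (dd i β y * κ y - β y * (deriv Real.smoothTransition (y 0 / ε - 1) *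
          ((if i = 0 then 1 else 0) / ε))), sq_nonneg K]
    · rw [if_neg hy]
      have : deriv Real.smoothTransition (y 0 / ε - 1) = 0 := by
        refine st_der ?_
        rw [le_sub_iff_add_le, le_div_iff₀ hε]
        linarith
      rw [this]
      simp only [zero_mul, mul_zero, add_zero]
      nlinarith [sq_nonneg K, sq_nonneg M2]
  · have h1 : y ∈ tsupport φ := by
      have : y ∈ tsupport (dd i φ) := subset_closure hy
      exact (closure_mono (s := Function.support (dd i φ)) (t := tsupport φ)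
        (fun z hz => support_fderiv_subset ℝ (f := φ) fun h => hz (by simp [dd, h])) |>.trans
        (isClosed_tsupport φ).closure_eq.subset) this
    exact hsub (hts h1)

end Vale.Agent.P088.R2.H850.DM
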