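import Vale.Agent.P088.R2.H850.DM.N2
import Vale.Agent.P088.R2.H850.DM.CutE
import Vale.Agent.P088.R2.H380.DM.Cac

/-!
# P088, SOLV row 6: the absorption at the boundary
-/

open MeasureTheory Set Filter Topology
open scoped ContDiff ENNReal NNReal

noncomputable section

namespace Vale.Agent.P088.R2.H850.DM

open Vale.Agent.P088.DC

variable {n : ℕ} [NeZero n]

theorem oUh (r : ℝ) : IsOpen (Uh (n := n) r) := isOpen_Uo r

theorem mUh (r : ℝ) : MeasurableSet (Uh (n := n) r) := (oUh r).measurableSet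

/-- The integral over a thin slab tends to zero. -/
theorem slab_tendsto {r : ℝ} {f : En n → ℝ≥0∞}
    (hfin : ∫⁻ y in Uh r, f y ≠ ⊤) {ε : ℕ → ℝ} (hε : Antitone ε) (hε0 : Tendsto ε atTop (𝓝 0)) :
    Tendsto (fun k => ∫⁻ y in Uh r ∩ {y | y 0 < ε k}, f y) atTop (𝓝 0) := by
  set ν := (volume.restrict (Uh (n := n) r)).withDensity f with hν
  have hms : ∀ e : ℝ, MeasurableSet {y : En n | y 0 < e} := fun e => meas_Sl e
  have hval : ∀ e : ℝ, ν {y : En n | y 0 < e} = ∫⁻ y in Uh r ∩ {y | y 0 < e}, f y := by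
    intro e
    rw [hν, withDensity_apply _ (hms e), Measure.restrict_restrict (hms e), inter_comm]
  have hanti : Antitone fun k => {y : En n | y 0 < ε k} := fun i j hij y hy =>
    lt_of_lt_of_le (show y 0 < ε j from hy) (hε hij)
  have h1 := tendsto_measure_iInter_atTop (μ := ν) (s := fun k => {y : En n | y 0 < ε k})
    (fun k => (hms _).nullMeasurableSet) hanti ⟨0, by
      rw [hval]
      refine ne_top_of_le_ne_top hfin (lintegral_mono_set inter_subset_left)⟩
  have h2 : ν (⋂ k, {y : En n | y 0 < ε k}) = 0 := by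
    have hsub : (⋂ k, {y : En n | y 0 < ε k}) ⊆ (Uh r)ᶜ := by
      intro y hy hyU
      have h3 : ∀ k, y 0 < ε k := fun k => by simpa using mem_iInter.1 hy k
      have h4 : y 0 ≤ 0 := ge_of_tendsto' hε0 fun k => (h3 k).le
      exact absurd hyU.1 (not_lt.2 h4)
    refine measure_mono_null hsub ?_
    rw [hν, withDensity_apply _ (mUh r).compl, Measure.restrict_restrict (mUh r).compl]
    simp
  rw [h2] at h1
  refine h1.congr fun k => ?_
  exact hval _

/-- The absorption. -/
theorem absorb {ι : Type} [Fintype ι] {r₁ r₂ : ℝ} (h0 : 0 < r₁) (h12 : r₁ < r₂) :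
    ∃ M : ℝ, 0 ≤ M ∧ ∀ (K : ℝ) (w : ι → En n → ℝ) (S : En n → ℝ),
      (∀ α, ContDiffOn ℝ 1 (w α) (Uh r₂)) → (∀ α, Tr r₂ (w α)) →
      (∀ α, ∫⁻ y in Uh r₂, ENNReal.ofReal (dd 0 (w α) y ^ 2) ≠ ⊤) →
      (∀ y ∈ Uh r₂, 0 ≤ S y) →
      (∀ φ, Cut (Uh r₂) φ → ∫⁻ y, ENNReal.ofReal (φ y ^ 2 * ∑ α, ∑ i, dd i (w α) y ^ 2) ≤
        ENNReal.ofReal K * ∫⁻ y, ENNReal.ofReal ((φ y ^ 2 + ∑ i, dd i φ y ^ 2) * ∑ α, w α y ^ 2 +
          φ y ^ 2 * S y)) →
      ∫⁻ y in Uh r₁, ENNReal.ofReal (∑ α, ∑ i, dd i (w α) y ^ 2) ≤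
        ENNReal.ofReal K * ∫⁻ y in Uh r₂, ENNReal.ofReal ((1 + n * M) * ∑ α, w α y ^ 2 + S y) := by
  obtain ⟨M, hM0, hM⟩ := cutoff (n := n) h0 h12 le_rfl
  refine ⟨M, hM0, ?_⟩
  intro K w S hw htr hfin hS hE
  have hr2 : 0 < r₂ := h0.trans h12
  set ε : ℕ → ℝ := fun k => 1 / ((k : ℝ) + 1) with hε
  have hε0 : ∀ k, 0 < ε k := fun k => by positivity
  have hεt : Tendsto ε atTop (𝓝 0) := tendsto_one_div_add_atTop_nhds_zero_nat
  have hεa : Antitone ε := fun i j hij => by
    simp only [hε]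
    gcongr
  choose! φ hφ using hM
  set P : En n → ℝ := fun y => ∑ α, ∑ i, dd i (w α) y ^ 2 with hP
  have hP0 : ∀ y, 0 ≤ P y := fun y => by positivity
  have hPc : ContinuousOn P (Uh r₂) := continuousOn_finsetSum _ fun α _ =>
    continuousOn_finsetSum _ fun i _ => (dd_cont (oUh r₂) (hw α) i).pow 2
  set A := ∫⁻ y in Uh r₂, ENNReal.ofReal ((1 + n * M) * ∑ α, w α y ^ 2 + S y) with hA
  set B : ℕ → ℝ≥0∞ := fun k => ENNReal.ofReal (8 * n * M) * ∑ α, ∫⁻ y in Uh r₂ ∩ {y | y 0 < 2 * ε k},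
    ENNReal.ofReal (dd 0 (w α) y ^ 2) with hB
  -- the estimate for fixed `k`
  have key : ∀ k, ∫⁻ y in Uh r₁, ENNReal.ofReal (φ (ε k) y ^ 2 * P y) ≤
      ENNReal.ofReal K * (A + B k) := by
    intro k
    obtain ⟨c1, c2, c3, c4, c5, c6⟩ := hφ (ε k) (hε0 k)
    refine (setLIntegral_le_lintegral _ _).trans ((hE _ c1).trans ?_)
    refine mul_le_mul' le_rfl ?_
    have hop : IsOpen (Uh r₂ ∩ Sl n (2 * ε k)) := (oUh r₂).inter (isOpen_Sl _)
    have hm : ∀ α, Measurable ((Uh r₂ ∩ Sl n (2 * ε k)).indicator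
        fun y => ENNReal.ofReal (w α y ^ 2)) := fun α =>
      meas_ind0 hop ((hw α).continuousOn.mono inter_subset_left)
    have hpt : ∀ y, ENNReal.ofReal ((φ (ε k) y ^ 2 + ∑ i, dd i (φ (ε k)) y ^ 2) *
        ∑ α, w α y ^ 2 + φ (ε k) y ^ 2 * S y) ≤
        (Uh r₂).indicator (fun y => ENNReal.ofReal ((1 + n * M) * ∑ α, w α y ^ 2 + S y)) y +
        ENNReal.ofReal (n * M / ε k ^ 2) * ∑ α, (Uh r₂ ∩ Sl n (2 * ε k)).indicator
          (fun y => ENNReal.ofReal (w α y ^ 2)) y := by
      intro y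
      by_cases hy : y ∈ Uh r₂
      · rw [indicator_of_mem hy]
        have hW0 : 0 ≤ ∑ α, w α y ^ 2 := by positivity
        have f1 : φ (ε k) y ^ 2 ≤ 1 := by
          have := c2 y
          nlinarith [this.1, this.2]
        have hSy := hS y hy
        have f2 : φ (ε k) y ^ 2 * S y ≤ S y := by nlinarith
        by_cases hs : y 0 < 2 * ε k
        · have hmem : y ∈ Uh r₂ ∩ Sl n (2 * ε k) := ⟨hy, hs⟩
          have f3 : ∑ i, dd i (φ (ε k)) y ^ 2 ≤ n * M + n * M / ε k ^ 2 := by
            calc ∑ i, dd i (φ (ε k)) y ^ 2 ≤ ∑ _i : Fin n, (M + M / ε k ^ 2) := by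
                  refine Finset.sum_le_sum fun i _ => ?_
                  have := c5 i y
                  rwa [if_pos hs] at this
              _ = n * M + n * M / ε k ^ 2 := by simp; ring
          calc ENNReal.ofReal ((φ (ε k) y ^ 2 + ∑ i, dd i (φ (ε k)) y ^ 2) *
                ∑ α, w α y ^ 2 + φ (ε k) y ^ 2 * S y)
              ≤ ENNReal.ofReal (((1 + n * M) * ∑ α, w α y ^ 2 + S y) +
                (n * M / ε k ^ 2) * ∑ α, w α y ^ 2) := by
                refine ENNReal.ofReal_le_ofReal ?_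
                nlinarith [mul_le_mul_of_nonneg_right (add_le_add f1 f3) hW0]
            _ ≤ ENNReal.ofReal ((1 + n * M) * ∑ α, w α y ^ 2 + S y) +
                ENNReal.ofReal ((n * M / ε k ^ 2) * ∑ α, w α y ^ 2) := ENNReal.ofReal_add_le
            _ = _ := by
                congr 1
                rw [ENNReal.ofReal_mul (by positivity),
                  ENNReal.ofReal_sum_of_nonneg fun _ _ => sq_nonneg _]
                congr 1
                refine Finset.sum_congr rfl fun α _ => ?_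
                rw [indicator_of_mem hmem]
        · have f3 : ∑ i, dd i (φ (ε k)) y ^ 2 ≤ n * M := by
            calc ∑ i, dd i (φ (ε k)) y ^ 2 ≤ ∑ _i : Fin n, M := by
                  refine Finset.sum_le_sum fun i _ => ?_
                  have := c5 i y
                  rwa [if_neg hs, add_zero] at this
              _ = n * M := by simp
          refine le_add_right (ENNReal.ofReal_le_ofReal ?_)
          nlinarith [mul_le_mul_of_nonneg_right (add_le_add f1 f3) hW0]
      · have e1 : φ (ε k) y = 0 := by by_contra h; exact hy (c4 y h)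
        have e2 : ∀ i, dd i (φ (ε k)) y = 0 := fun i => by by_contra h; exact hy (c6 i y h)
        simp [e1, e2]
    refine (lintegral_mono hpt).trans ?_
    rw [lintegral_add_right _ ((Finset.measurable_sum _ fun α _ => hm α).const_mul _),
      lintegral_indicator (mUh r₂), lintegral_const_mul _ (Finset.measurable_sum _ fun α _ => hm α),
      lintegral_finsetSum _ fun α _ => hm α]
    refine add_le_add le_rfl ?_
    calc ENNReal.ofReal (n * M / ε k ^ 2) * ∑ α, ∫⁻ y, (Uh r₂ ∩ Sl n (2 * ε k)).indicator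
          (fun y => ENNReal.ofReal (w α y ^ 2)) y
        ≤ ENNReal.ofReal (n * M / ε k ^ 2) * ∑ α, ENNReal.ofReal (2 * (2 * ε k) ^ 2) *
          ∫⁻ y in Uh r₂ ∩ {y | y 0 < 2 * ε k}, ENNReal.ofReal (dd 0 (w α) y ^ 2) := by
          refine mul_le_mul' le_rfl (Finset.sum_le_sum fun α _ => ?_)
          rw [lintegral_indicator hop.measurableSet]
          exact hardy_tr hr2 (hw α) (htr α) (by have := hε0 k; positivity)
      _ = B k := by
          rw [← Finset.mul_sum, ← mul_assoc, ← ENNReal.ofReal_mul (by positivity)]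
          congr 2
          have := (hε0 k).ne'
          field_simp
          ring
  -- the limit
  have hBt : Tendsto B atTop (𝓝 0) := by
    have h1 : Tendsto (fun k => ∑ α, ∫⁻ y in Uh r₂ ∩ {y | y 0 < 2 * ε k},
        ENNReal.ofReal (dd 0 (w α) y ^ 2)) atTop (𝓝 (∑ _α : ι, 0)) := by
      refine tendsto_finsetSum _ fun α _ => ?_
      refine slab_tendsto (hfin α) (ε := fun k => 2 * ε k)
        (fun i j hij => by have := hεa hij; simp only; linarith) ?_
      simpa using hεt.const_mul 2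
    have h2 := ENNReal.Tendsto.const_mul (a := ENNReal.ofReal (8 * n * M)) h1
      (Or.inr ENNReal.ofReal_ne_top)
    rw [Finset.sum_const_zero, mul_zero] at h2
    exact h2
  have hRt : Tendsto (fun k => ENNReal.ofReal K * (A + B k)) atTop (𝓝 (ENNReal.ofReal K * (A + 0))) :=
    ENNReal.Tendsto.const_mul (tendsto_const_nhds.add hBt) (Or.inr ENNReal.ofReal_ne_top)
  rw [add_zero] at hRt
  calc ∫⁻ y in Uh r₁, ENNReal.ofReal (P y)
      = ∫⁻ y in Uh r₁, liminf (fun k => ENNReal.ofReal (φ (ε k) y ^ 2 * P y)) atTop := by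
        refine setLIntegral_congr_fun (mUh r₁) fun y hy => ?_
        have hev : ∀ᶠ k in atTop, ENNReal.ofReal (φ (ε k) y ^ 2 * P y) = ENNReal.ofReal (P y) := by
          have h1 : Tendsto (fun k => 2 * ε k) atTop (𝓝 0) := by simpa using hεt.const_mul 2
          filter_upwards [h1.eventually (ge_mem_nhds hy.1)] with k hk
          have := (hφ (ε k) (hε0 k)).2.2.1 y hy hk
          rw [this]
          simp
        exact (Tendsto.liminf_eq (tendsto_const_nhds.congr' (hev.mono fun k hk => hk.symm))).symm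
    _ ≤ liminf (fun k => ∫⁻ y in Uh r₁, ENNReal.ofReal (φ (ε k) y ^ 2 * P y)) atTop := by
        refine lintegral_liminf_le' fun k => ?_
        have hc : ContinuousOn (fun y => φ (ε k) y ^ 2 * P y) (Uh r₁) :=
          (((hφ (ε k) (hε0 k)).1.sm.continuous.continuousOn).pow 2).mul
            (hPc.mono fun y hy => ⟨hy.1, fun i => (hy.2 i).trans h12⟩)
        exact (hc.aemeasurable (mUh r₁)).ennreal_ofReal
    _ ≤ liminf (fun k => ENNReal.ofReal K * (A + B k)) atTop :=
        liminf_le_liminf (Eventually.of_forall key)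
    _ = ENNReal.ofReal K * A := hRt.liminf_eq

end Vale.Agent.P088.R2.H850.DM
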