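import Vale.Agent.P088.R2.H850.DM.Abs

/-!
# P088, SOLV row 6: the uniform bound of the tangential difference quotients
-/

open MeasureTheory Set Filter Topology
open scoped ContDiff ENNReal NNReal

noncomputable section

namespace Vale.Agent.P088.R2.H850.DM

open Vale.Agent.P088.DC

variable {n : ℕ} [NeZero n]

/-- The hypotheses of the Caccioppoli estimate for the difference quotients. -/
def DqS (n : ℕ) [NeZero n] : Prop := ∀ (ι : Type) [Fintype ι] (r r₂ : ℝ)
  (a : Fin n → Fin n → En n → ℝ) (W : ι → En n → ℝ), Ell r a → Cl r a W → r₂ < r →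
  ∃ lam : ℝ, 0 < lam ∧ ∃ L : ℝ, 0 ≤ L ∧ ∀ (t : Fin n) (h : ℝ), t ≠ 0 → 0 < h →
  h < (r - r₂) / 2 →
  ∃ (X Y : Fin n → ι → En n → ℝ) (rr : ι → En n → ℝ),
    (∀ i α, ContDiffOn ℝ 1 (X i α) (Uh r₂)) ∧
    (∀ α, ∀ y ∈ Uh r₂, ∑ i, dd i (X i α) y = rr α y) ∧
    (∀ y ∈ Uh r₂, ∀ α, lam * ∑ i, dd i (fun y => (W α (y + h • ee t) - W α y) / h) y ^ 2 ≤
      ∑ i, (X i α y - Y i α y) * dd i (fun y => (W α (y + h • ee t) - W α y) / h) y) ∧
    (∀ y ∈ Uh r₂, ∀ i α, Y i α y ^ 2 ≤ L * ∑ α, ∑ i, dd i (W α) y ^ 2) ∧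
    (∀ y ∈ Uh r₂, ∀ i α, X i α y ^ 2 ≤
      L * (∑ α, ∑ i, dd i (fun y => (W α (y + h • ee t) - W α y) / h) y ^ 2 +
        ∑ α, ∑ i, dd i (W α) y ^ 2)) ∧
    ∀ y ∈ Uh r₂, ∀ α, rr α y ^ 2 ≤
      L * (1 + ∑ α, ∑ i, dd i (fun y => (W α (y + h • ee t) - W α y) / h) y ^ 2 +
        ∑ α, ∑ i, dd i (W α) y ^ 2 + ∑ α, ((W α (y + h • ee t) - W α y) / h) ^ 2 +
        ∑ α, W α y ^ 2)

omit [NeZero n] in
theorem shift_le {S T : Set (En n)} (hS : MeasurableSet S) (hT : MeasurableSet T) {v : En n}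
    (hST : ∀ y ∈ S, y + v ∈ T) (F : En n → ℝ≥0∞) :
    ∫⁻ y in S, F (y + v) ≤ ∫⁻ y in T, F y := by
  rw [← lintegral_indicator hS, ← lintegral_indicator hT,
    ← lintegral_add_right_eq_self (T.indicator F) v]
  refine lintegral_mono fun y => ?_
  by_cases hy : y ∈ S
  · rw [indicator_of_mem hy, indicator_of_mem (hST y hy)]
  · rw [indicator_of_notMem hy]
    exact zero_le

omit [NeZero n] in
theorem memLp_fin {S : Set (En n)} {f : En n → ℝ} (hf : MemLp f 2 (volume.restrict S)) :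
    ∫⁻ y in S, ENNReal.ofReal (f y ^ 2) < ⊤ := hf.integrable_sq.lintegral_lt_top

/-- The shifted point is in the larger box. -/
theorem shift_mem {r r₂ h : ℝ} {t : Fin n} (ht : t ≠ 0) (hh0 : 0 ≤ h) (hh : h < r - r₂) {y : En n}
    (hy : y ∈ Uh r₂) : y + h • ee t ∈ Uh r := by
  refine ⟨?_, fun i => ?_⟩
  · have : (y + h • ee t) 0 = y 0 := by simp [Ne.symm ht]
    rw [this]; exact hy.1
  · have h1 := hy.2 i
    have e : (y + h • ee t) i = y i + h * (if i = t then 1 else 0) := by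
      by_cases hi : i = t
      · subst hi; simp
      · simp [hi]
    have h2 : |(y + h • ee t) i| ≤ |y i| + h := by
      rw [e]
      refine (abs_add_le _ _).trans (add_le_add le_rfl ?_)
      split_ifs
      · rw [mul_one, abs_of_nonneg hh0]
      · rw [mul_zero, abs_zero]; exact hh0
    linarith

theorem shift_zero {h : ℝ} {t : Fin n} (ht : t ≠ 0) (y : En n) : (y + h • ee t) 0 = y 0 := by
  simp [Ne.symm ht]

/-- A difference quotient for a fixed step. -/
theorem dq_fix {r r₂ h : ℝ} {t : Fin n} (ht : t ≠ 0) (hh0 : 0 < h) (hh : h < r - r₂)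
    {f : En n → ℝ} (hf : ContinuousOn f (Uh r)) {e : ℝ} :
    ∫⁻ y in Uh r₂ ∩ {y | y 0 < e}, ENNReal.ofReal (((f (y + h • ee t) - f y) / h) ^ 2) ≤
      ENNReal.ofReal (4 / h ^ 2) * ∫⁻ y in Uh r ∩ {y | y 0 < e}, ENNReal.ofReal (f y ^ 2) := by
  have hS : IsOpen (Uh r₂ ∩ Sl n e) := (oUh r₂).inter (isOpen_Sl e)
  have hT : IsOpen (Uh r ∩ Sl n e) := (oUh r).inter (isOpen_Sl e)
  have hsub : Uh (n := n) r₂ ⊆ Uh r := fun y hy => ⟨hy.1, fun i => by linarith [hy.2 i]⟩
  have h1 : ∀ y, ENNReal.ofReal (((f (y + h • ee t) - f y) / h) ^ 2) ≤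
      ENNReal.ofReal (2 / h ^ 2) * ENNReal.ofReal (f (y + h • ee t) ^ 2) +
      ENNReal.ofReal (2 / h ^ 2) * ENNReal.ofReal (f y ^ 2) := by
    intro y
    rw [← ENNReal.ofReal_mul (by positivity), ← ENNReal.ofReal_mul (by positivity),
      ← ENNReal.ofReal_add (by positivity) (by positivity)]
    refine ENNReal.ofReal_le_ofReal ?_
    rw [div_pow, div_le_iff₀ (by positivity)]
    have e1 : (2 / h ^ 2 * f (y + h • ee t) ^ 2 + 2 / h ^ 2 * f y ^ 2) * h ^ 2 =
        2 * f (y + h • ee t) ^ 2 + 2 * f y ^ 2 := by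
      field_simp
    rw [e1]
    nlinarith [sq_nonneg (f (y + h • ee t) + f y)]
  have hm : AEMeasurable (fun y => ENNReal.ofReal (2 / h ^ 2) * ENNReal.ofReal (f y ^ 2))
      (volume.restrict (Uh r₂ ∩ {y | y 0 < e})) := by
    have hc : ContinuousOn (fun y => f y ^ 2) (Uh r₂ ∩ Sl n e) :=
      (hf.mono (inter_subset_left.trans hsub)).pow 2
    exact ((hc.aemeasurable hS.measurableSet).ennreal_ofReal).const_mul _
  calc ∫⁻ y in Uh r₂ ∩ {y | y 0 < e}, ENNReal.ofReal (((f (y + h • ee t) - f y) / h) ^ 2)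
      ≤ ∫⁻ y in Uh r₂ ∩ {y | y 0 < e},
        (ENNReal.ofReal (2 / h ^ 2) * ENNReal.ofReal (f (y + h • ee t) ^ 2) +
        ENNReal.ofReal (2 / h ^ 2) * ENNReal.ofReal (f y ^ 2)) := lintegral_mono h1
    _ = ENNReal.ofReal (2 / h ^ 2) *
          (∫⁻ y in Uh r₂ ∩ {y | y 0 < e}, ENNReal.ofReal (f (y + h • ee t) ^ 2)) +
        ENNReal.ofReal (2 / h ^ 2) * ∫⁻ y in Uh r₂ ∩ {y | y 0 < e}, ENNReal.ofReal (f y ^ 2) := by
        rw [lintegral_add_right' _ hm, lintegral_const_mul' _ _ ENNReal.ofReal_ne_top,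
          lintegral_const_mul' _ _ ENNReal.ofReal_ne_top]
    _ ≤ ENNReal.ofReal (2 / h ^ 2) *
          (∫⁻ y in Uh r ∩ {y | y 0 < e}, ENNReal.ofReal (f y ^ 2)) +
        ENNReal.ofReal (2 / h ^ 2) * ∫⁻ y in Uh r ∩ {y | y 0 < e}, ENNReal.ofReal (f y ^ 2) := by
        refine add_le_add (mul_le_mul' le_rfl ?_) (mul_le_mul' le_rfl ?_)
        · refine shift_le hS.measurableSet hT.measurableSet (fun y hy => ?_)
            (fun y => ENNReal.ofReal (f y ^ 2))
          refine ⟨shift_mem ht hh0.le hh hy.1, ?_⟩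
          change (y + h • ee t) 0 < e
          rw [shift_zero ht]
          exact hy.2
        · exact lintegral_mono_set (inter_subset_inter_left _ hsub)
    _ = _ := by
        rw [← add_mul, ← ENNReal.ofReal_add (by positivity) (by positivity)]
        congr 2
        ring

/-- The derivative of a difference quotient. -/
theorem dd_dq {r r₂ h : ℝ} {t : Fin n} (ht : t ≠ 0) (hh0 : 0 < h) (hh : h < r - r₂)
    {f : En n → ℝ} (hf : ContDiffOn ℝ 1 f (Uh r)) (i : Fin n) {y : En n} (hy : y ∈ Uh r₂) :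
    dd i (fun y => (f (y + h • ee t) - f y) / h) y = (dd i f (y + h • ee t) - dd i f y) / h := by
  have hy' : y ∈ Uh r := ⟨hy.1, fun i => by linarith [hy.2 i]⟩
  have d1 : HasFDerivAt f (fderiv ℝ f (y + h • ee t)) (y + h • ee t) :=
    ((hf.contDiffAt ((oUh r).mem_nhds (shift_mem ht hh0.le hh hy))).differentiableAt
      one_ne_zero).hasFDerivAt
  have d2 : HasFDerivAt f (fderiv ℝ f y) y :=
    ((hf.contDiffAt ((oUh r).mem_nhds hy')).differentiableAt one_ne_zero).hasFDerivAt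
  have d3 : HasFDerivAt (fun y => f (y + h • ee t)) (fderiv ℝ f (y + h • ee t)) y :=
    by
      have e := HasFDerivAt.comp y d1 ((hasFDerivAt_id y).add_const (h • ee t))
      rwa [ContinuousLinearMap.comp_id] at e
  have d4 := (d3.sub d2).mul_const h⁻¹
  have e1 : fderiv ℝ (fun y => (f (y + h • ee t) - f y) / h) y =
      h⁻¹ • (fderiv ℝ f (y + h • ee t) - fderiv ℝ f y) := by
    refine HasFDerivAt.fderiv ?_
    refine d4.congr_of_eventuallyEq (Eventually.of_forall fun z => ?_)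
    simp [div_eq_mul_inv]
  simp only [dd, e1, smul_apply, sub_apply, smul_eq_mul]
  ring

/-- (G) The uniform bound. -/
theorem dq_bound (hS : DqS n) {ι : Type} [Fintype ι] {r r' : ℝ} {a : Fin n → Fin n → En n → ℝ}
    {W : ι → En n → ℝ} (ha : Ell r a) (hW : Cl r a W) (h0 : 0 < r') (h1 : r' < r) {t : Fin n}
    (ht : t ≠ 0) : ∃ K : ℝ≥0∞, K ≠ ⊤ ∧ ∃ δ > 0, r' + δ ≤ r ∧ ∀ h, 0 < h → h < δ → ∀ i α,
      ∫⁻ y in Uh r', ENNReal.ofReal (((dd i (W α) (y + h • ee t) - dd i (W α) y) / h) ^ 2) ≤ K := by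
  classical
  set r₂ := (r' + r) / 2 with hr2
  have h12 : r' < r₂ := by rw [hr2]; linarith
  have h2r : r₂ < r := by rw [hr2]; linarith
  have hsub : Uh (n := n) r₂ ⊆ Uh r := fun y hy => ⟨hy.1, fun i => (hy.2 i).trans h2r⟩
  obtain ⟨lam, hl, L, hL, hsys⟩ := hS ι r r₂ a W ha hW h2r
  obtain ⟨Ke, hKe, hE⟩ := energy ι n hl hL
  obtain ⟨M, hM, hAb⟩ := absorb (n := n) (ι := ι) h0 h12
  have hW1 : ∀ α, ContDiffOn ℝ 1 (W α) (Uh r) := fun α => (hW.sm α).of_le (by norm_cast)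
  set SQ : En n → ℝ := fun y => ∑ α, ∑ i, dd i (W α) y ^ 2 with hSQ
  set ST : En n → ℝ := fun y => ∑ α, W α y ^ 2 with hST
  have cSQ : ContinuousOn SQ (Uh r₂) := continuousOn_finsetSum _ fun α _ =>
    continuousOn_finsetSum _ fun i _ => ((dd_cont (oUh r) (hW1 α) i).mono hsub).pow 2
  have cST : ContinuousOn ST (Uh r₂) := continuousOn_finsetSum _ fun α _ =>
    ((hW1 α).continuousOn.mono hsub).pow 2
  set K1 : ℝ≥0∞ := ENNReal.ofReal (1 + n * M) * (∑ α, ∫⁻ y in Uh r, ENNReal.ofReal (dd t (W α) y ^ 2))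
    + ∫⁻ y in Uh r₂, ENNReal.ofReal (SQ y + ST y + 1) with hK1
  refine ⟨ENNReal.ofReal Ke * K1, ?_, (r - r₂) / 2, by linarith, by linarith, ?_⟩
  · refine ENNReal.mul_ne_top ENNReal.ofReal_ne_top (ENNReal.add_ne_top.2 ⟨?_, ?_⟩)
    · refine ENNReal.mul_ne_top ENNReal.ofReal_ne_top (ENNReal.sum_ne_top.2 fun α _ => ?_)
      exact (memLp_fin (hW.d2 t α)).ne
    · have i1 : IntegrableOn (fun y => SQ y + ST y + 1) (Uh r₂) := by
        refine Integrable.add (Integrable.add ?_ ?_) ?_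
        · exact integrable_finsetSum _ fun α _ => integrable_finsetSum _ fun i _ =>
            ((hW.d2 i α).mono_measure (Measure.restrict_mono hsub le_rfl)).integrable_sq
        · exact integrable_finsetSum _ fun α _ =>
            ((hW.l2 α).mono_measure (Measure.restrict_mono hsub le_rfl)).integrable_sq
        · have hb : Bornology.IsBounded (Uh (n := n) r₂) := by
            refine (Metric.isBounded_iff_subset_closedBall 0).2 ⟨√(n * r₂ ^ 2), fun y hy => ?_⟩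
            rw [mem_closedBall_zero_iff, EuclideanSpace.norm_eq]
            refine Real.sqrt_le_sqrt ?_
            calc ∑ i, ‖y i‖ ^ 2 ≤ ∑ _i : Fin n, r₂ ^ 2 := by
                  refine Finset.sum_le_sum fun i _ => ?_
                  exact pow_le_pow_left₀ (norm_nonneg _) (hy.2 i).le 2
              _ = n * r₂ ^ 2 := by simp
          exact (integrableOn_const_iff (μ := volume)).2 (Or.inr hb.measure_lt_top)
      exact i1.lintegral_lt_top.ne
  · intro h hh0 hh' i α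
    obtain ⟨X, Y, rr, x1, x2, x3, x4, x5, x6⟩ := hsys t h ht hh0 hh'
    have hh : h < r - r₂ := by linarith
    set w : ι → En n → ℝ := fun α y => (W α (y + h • ee t) - W α y) / h with hw
    have hmaps : MapsTo (fun y : En n => y + h • ee t) (Uh r₂) (Uh r) := fun y hy =>
      shift_mem ht hh0.le hh hy
    have cw : ∀ α, ContDiffOn ℝ 1 (w α) (Uh r₂) := fun α =>
      (((hW1 α).comp (by fun_prop) hmaps).sub ((hW1 α).mono hsub)).div_const h
    have tw : ∀ α, Tr r₂ (w α) := by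
      intro α
      obtain ⟨C, hC⟩ := hW.tr
      refine ⟨(4 / h ^ 2).toNNReal * C, fun e he => ?_⟩
      refine (dq_fix ht hh0 hh (hW1 α).continuousOn).trans ?_
      rw [ENNReal.coe_mul, mul_assoc]
      exact mul_le_mul' le_rfl (hC α e he)
    have fw : ∀ α, ∫⁻ y in Uh r₂, ENNReal.ofReal (dd 0 (w α) y ^ 2) ≠ ⊤ := by
      intro α
      have e1 : ∫⁻ y in Uh r₂, ENNReal.ofReal (dd 0 (w α) y ^ 2) =
          ∫⁻ y in Uh r₂, ENNReal.ofReal (((dd 0 (W α) (y + h • ee t) - dd 0 (W α) y) / h) ^ 2) := by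
        refine setLIntegral_congr_fun (mUh r₂) fun y hy => ?_
        simp only [hw]
        rw [dd_dq ht hh0 hh (hW1 α) 0 hy]
      have hbig : ∀ s, Uh (n := n) s ∩ {y | y 0 < s} = Uh s := fun s => by
        refine inter_eq_left.2 fun y hy => (le_abs_self _).trans_lt (hy.2 0)
      have e2 := dq_fix ht hh0 hh (dd_cont (oUh r) (hW1 α) 0) (e := r)
      have e3 : Uh (n := n) r₂ ∩ {y | y 0 < r} = Uh r₂ :=
        inter_eq_left.2 fun y hy => ((le_abs_self _).trans_lt (hy.2 0)).trans h2r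
      rw [e3, hbig r] at e2
      rw [e1]
      exact ne_top_of_le_ne_top (ENNReal.mul_ne_top ENNReal.ofReal_ne_top
        (memLp_fin (hW.d2 0 α)).ne) e2
    have hEn : ∀ φ, Cut (Uh r₂) φ → ∫⁻ y, ENNReal.ofReal (φ y ^ 2 * ∑ α, ∑ i, dd i (w α) y ^ 2) ≤
        ENNReal.ofReal Ke * ∫⁻ y, ENNReal.ofReal ((φ y ^ 2 + ∑ i, dd i φ y ^ 2) * ∑ α, w α y ^ 2 +
          φ y ^ 2 * (SQ y + ST y + 1)) := fun φ hφ =>
      hE (Uh r₂) (oUh r₂) φ hφ w X Y rr SQ ST cw x1 cSQ cST x2 (fun y _ => by positivity)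
        (fun y _ => by positivity) x3 x4 x5 x6
    have hfin := hAb Ke w (fun y => SQ y + ST y + 1) cw tw fw (fun y _ => by positivity) hEn
    have e4 : ∫⁻ y in Uh r', ENNReal.ofReal
        (((dd i (W α) (y + h • ee t) - dd i (W α) y) / h) ^ 2) ≤
        ∫⁻ y in Uh r', ENNReal.ofReal (∑ α, ∑ i, dd i (w α) y ^ 2) := by
      refine setLIntegral_mono' (mUh r') fun y hy => ENNReal.ofReal_le_ofReal ?_
      rw [← dd_dq ht hh0 hh (hW1 α) i (show y ∈ Uh r₂ from ⟨hy.1, fun i => (hy.2 i).trans h12⟩)]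
      calc dd i (w α) y ^ 2 ≤ ∑ i, dd i (w α) y ^ 2 :=
            Finset.single_le_sum (f := fun i => dd i (w α) y ^ 2) (fun _ _ => sq_nonneg _)
              (Finset.mem_univ i)
        _ ≤ ∑ α, ∑ i, dd i (w α) y ^ 2 :=
            Finset.single_le_sum (f := fun α => ∑ i, dd i (w α) y ^ 2)
              (fun _ _ => Finset.sum_nonneg fun _ _ => sq_nonneg _) (Finset.mem_univ α)
    refine e4.trans (hfin.trans (mul_le_mul' le_rfl ?_))
    have hmS : AEMeasurable (fun y => ENNReal.ofReal (SQ y + ST y + 1)) (volume.restrict (Uh r₂)) :=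
      (((cSQ.add cST).add continuousOn_const).aemeasurable (mUh r₂)).ennreal_ofReal
    have hmw : ∀ α, AEMeasurable (fun y => ENNReal.ofReal (w α y ^ 2)) (volume.restrict (Uh r₂)) :=
      fun α => (((cw α).continuousOn.pow 2).aemeasurable (mUh r₂)).ennreal_ofReal
    calc ∫⁻ y in Uh r₂, ENNReal.ofReal ((1 + n * M) * ∑ α, w α y ^ 2 + (SQ y + ST y + 1))
        ≤ ∫⁻ y in Uh r₂, (ENNReal.ofReal (1 + n * M) * ∑ α, ENNReal.ofReal (w α y ^ 2) +
          ENNReal.ofReal (SQ y + ST y + 1)) := by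
          refine lintegral_mono fun y => ?_
          refine ENNReal.ofReal_add_le.trans (add_le_add ?_ le_rfl)
          rw [ENNReal.ofReal_mul (by positivity), ENNReal.ofReal_sum_of_nonneg
            fun _ _ => sq_nonneg _]
      _ = ENNReal.ofReal (1 + n * M) * (∑ α, ∫⁻ y in Uh r₂, ENNReal.ofReal (w α y ^ 2)) +
          ∫⁻ y in Uh r₂, ENNReal.ofReal (SQ y + ST y + 1) := by
          rw [lintegral_add_right' _ hmS, lintegral_const_mul' _ _ ENNReal.ofReal_ne_top,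
            lintegral_finsetSum' _ fun α _ => hmw α]
      _ ≤ K1 := by
          refine add_le_add (mul_le_mul' le_rfl (Finset.sum_le_sum fun α _ => ?_)) le_rfl
          refine dq_le (oUh r) (hW1 α) (mUh r₂) hh0.ne' fun y hy s hs => ?_
          refine shift_mem ht (mul_nonneg hs.1 hh0.le) ?_ hy
          have : s * h ≤ h := mul_le_of_le_one_left hh0.le hs.2
          linarith

end Vale.Agent.P088.R2.H850.DM
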