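import Vale.Agent.P088.MathlibUsed
import Mathlib.MeasureTheory.Integral.Marginal

/-!
# P088, SOLV row 6: difference quotients, one-dimensional tools
-/

open MeasureTheory Set Filter Topology
open scoped ContDiff ENNReal

noncomputable section

namespace Vale.Agent.P088.R2.H850.DM

/-- Cauchy-Schwarz for a one-dimensional increment. -/
theorem cs1 {g g' : ℝ → ℝ} {s t : ℝ} (hst : s ≤ t) (hg : ∀ x ∈ Icc s t, HasDerivAt g (g' x) x)
    (hc : ContinuousOn g' (Icc s t)) :
    (g t - g s) ^ 2 ≤ (t - s) * ∫ x in s..t, g' x ^ 2 := by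
  have hi : IntervalIntegrable g' volume s t := (hc.mono (by rw [uIcc_of_le hst])).intervalIntegrable
  have hi2 : IntervalIntegrable (fun x => g' x ^ 2) volume s t :=
    ((hc.pow 2).mono (by rw [uIcc_of_le hst])).intervalIntegrable
  have h1 : ∫ x in s..t, g' x = g t - g s :=
    intervalIntegral.integral_eq_sub_of_hasDerivAt (fun x hx => hg x (by rwa [uIcc_of_le hst] at hx)) hi
  rcases hst.eq_or_lt with h | h
  · subst h; simp
  · set m := (g t - g s) / (t - s) with hm
    have hts : 0 < t - s := sub_pos.2 h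
    have h2 : 0 ≤ ∫ x in s..t, (g' x - m) ^ 2 :=
      intervalIntegral.integral_nonneg hst fun x _ => sq_nonneg _
    have h3 : ∫ x in s..t, (g' x - m) ^ 2 =
        (∫ x in s..t, g' x ^ 2) - 2 * m * (g t - g s) + m ^ 2 * (t - s) := by
      have : (fun x => (g' x - m) ^ 2) = fun x => (g' x ^ 2 - 2 * m * g' x) + m ^ 2 := by
        funext x; ring
      rw [this, intervalIntegral.integral_add (hi2.sub (hi.const_mul _)) (by simp),
        intervalIntegral.integral_sub hi2 (hi.const_mul _), intervalIntegral.integral_const_mul, h1,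
        intervalIntegral.integral_const, smul_eq_mul]
      ring
    rw [h3] at h2
    have h4 : m * (t - s) = g t - g s := by rw [hm]; field_simp
    nlinarith [h2, h4, mul_nonneg hts.le h2]

/-- Cauchy-Schwarz for a one-dimensional increment, lower integrals. -/
theorem cs2 {g g' : ℝ → ℝ} {s t : ℝ} (hst : s ≤ t) (hg : ∀ x ∈ Icc s t, HasDerivAt g (g' x) x)
    (hc : ContinuousOn g' (Icc s t)) :
    ENNReal.ofReal ((g t - g s) ^ 2) ≤
      ENNReal.ofReal (t - s) * ∫⁻ x in Ioo s t, ENNReal.ofReal (g' x ^ 2) := by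
  have h1 := cs1 hst hg hc
  have hi2 : IntegrableOn (fun x => g' x ^ 2) (Ioc s t) :=
    ((hc.pow 2).integrableOn_Icc).mono_set Ioc_subset_Icc_self
  rw [intervalIntegral.integral_of_le hst] at h1
  rw [restrict_Ioo_eq_restrict_Ioc, ← ofReal_integral_eq_lintegral_ofReal hi2
    (Eventually.of_forall fun x => sq_nonneg _), ← ENNReal.ofReal_mul (sub_nonneg.2 hst)]
  exact ENNReal.ofReal_le_ofReal h1

variable {E : Type*} [NormedAddCommGroup E] [NormedSpace ℝ E] [MeasurableSpace E] [BorelSpace E]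
  [SecondCountableTopology E] {μ : Measure E} [μ.IsAddRightInvariant] [SFinite μ]

omit [SecondCountableTopology E] [SFinite μ] [μ.IsAddRightInvariant] in
/-- The derivative of a `C¹` function on an open set, extended by zero, is measurable. -/
theorem meas_ind {f : E → ℝ} {O : Set E} (hO : IsOpen O) (hf : ContDiffOn ℝ 1 f O) (v : E) :
    Measurable (O.indicator fun y => ENNReal.ofReal (fderiv ℝ f y v ^ 2)) := by
  have h1 : ContinuousOn (fun y => fderiv ℝ f y v) O :=
    (hf.continuousOn_fderiv_of_isOpen hO le_rfl).clm_apply continuousOn_const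
  refine measurable_of_restrict_of_restrict_compl hO.measurableSet ?_ ?_
  · have : O.domRestrict (O.indicator fun y => ENNReal.ofReal (fderiv ℝ f y v ^ 2)) =
        fun y : O => ENNReal.ofReal (O.domRestrict (fun y => fderiv ℝ f y v) y ^ 2) := by
      funext y
      simp [Set.domRestrict_apply, y.2]
    rw [this]
    exact ((h1.domRestrict.pow 2).measurable).ennreal_ofReal
  · have : Oᶜ.domRestrict (O.indicator fun y => ENNReal.ofReal (fderiv ℝ f y v ^ 2)) = fun _ => 0 := by
      funext y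
      simp only [Set.domRestrict_apply]
      exact Set.indicator_of_notMem y.2 _
    rw [this]
    exact measurable_const

/-- (A) The difference quotients are bounded by the derivative. -/
theorem dq_le {f : E → ℝ} {O S : Set E} (hO : IsOpen O) (hf : ContDiffOn ℝ 1 f O)
    (hS : MeasurableSet S) {h : ℝ} (hh : h ≠ 0) {v : E}
    (hv : ∀ y ∈ S, ∀ t ∈ Icc (0 : ℝ) 1, y + (t * h) • v ∈ O) :
    ∫⁻ y in S, ENNReal.ofReal (((f (y + h • v) - f y) / h) ^ 2) ∂μ ≤
      ∫⁻ y in O, ENNReal.ofReal (fderiv ℝ f y v ^ 2) ∂μ := by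
  set k : E → ℝ≥0∞ := O.indicator fun y => ENNReal.ofReal (fderiv ℝ f y v ^ 2) with hk
  have hkm : Measurable k := meas_ind hO hf v
  have h1 : ∀ y ∈ S, ENNReal.ofReal (((f (y + h • v) - f y) / h) ^ 2) ≤
      ∫⁻ t in Ioo (0 : ℝ) 1, k (y + (t * h) • v) := by
    intro y hy
    have hd : ∀ t ∈ Icc (0 : ℝ) 1, HasDerivAt (fun t : ℝ => f (y + (t * h) • v))
        (h * fderiv ℝ f (y + (t * h) • v) v) t := by
      intro t ht
      have e1 : HasDerivAt (fun t : ℝ => y + (t * h) • v) (h • v) t := by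
        have : HasDerivAt (fun t : ℝ => t * h) h t := by simpa using (hasDerivAt_id t).mul_const h
        simpa using (this.smul_const v).const_add y
      have e2 : HasFDerivAt f (fderiv ℝ f (y + (t * h) • v)) (y + (t * h) • v) :=
        ((hf.contDiffAt (hO.mem_nhds (hv y hy t ht))).differentiableAt one_ne_zero).hasFDerivAt
      have := e2.comp_hasDerivAt t e1
      rwa [map_smul, smul_eq_mul] at this
    have hc : ContinuousOn (fun t : ℝ => h * fderiv ℝ f (y + (t * h) • v) v) (Icc 0 1) := by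
      refine continuousOn_const.mul (ContinuousOn.clm_apply ?_ continuousOn_const)
      exact (hf.continuousOn_fderiv_of_isOpen hO le_rfl).comp (by fun_prop) fun t ht => hv y hy t ht
    have h2 := cs2 zero_le_one hd hc
    simp only [sub_zero, ENNReal.ofReal_one, one_mul, zero_mul, zero_smul, add_zero, one_mul] at h2
    have h3 : ENNReal.ofReal (((f (y + h • v) - f y) / h) ^ 2) =
        ENNReal.ofReal ((h ^ 2)⁻¹) * ENNReal.ofReal ((f (y + h • v) - f y) ^ 2) := by
      rw [← ENNReal.ofReal_mul (by positivity)]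
      congr 1
      field_simp
    rw [h3]
    calc ENNReal.ofReal ((h ^ 2)⁻¹) * ENNReal.ofReal ((f (y + h • v) - f y) ^ 2)
        ≤ ENNReal.ofReal ((h ^ 2)⁻¹) *
          ∫⁻ x in Ioo (0 : ℝ) 1, ENNReal.ofReal ((h * fderiv ℝ f (y + (x * h) • v) v) ^ 2) := by
          gcongr
      _ = ∫⁻ x in Ioo (0 : ℝ) 1, ENNReal.ofReal ((h ^ 2)⁻¹) *
          ENNReal.ofReal ((h * fderiv ℝ f (y + (x * h) • v) v) ^ 2) := by
          rw [lintegral_const_mul' _ _ ENNReal.ofReal_ne_top]
      _ = ∫⁻ t in Ioo (0 : ℝ) 1, k (y + (t * h) • v) := by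
          refine setLIntegral_congr_fun measurableSet_Ioo fun t ht => ?_
          have : y + (t * h) • v ∈ O := hv y hy t ⟨ht.1.le, ht.2.le⟩
          simp only [hk, Set.indicator_of_mem this]
          rw [← ENNReal.ofReal_mul (by positivity)]
          congr 1
          field_simp
  calc ∫⁻ y in S, ENNReal.ofReal (((f (y + h • v) - f y) / h) ^ 2) ∂μ
      ≤ ∫⁻ y in S, (∫⁻ t in Ioo (0 : ℝ) 1, k (y + (t * h) • v)) ∂μ :=
        setLIntegral_mono' hS h1
    _ ≤ ∫⁻ y, (∫⁻ t in Ioo (0 : ℝ) 1, k (y + (t * h) • v)) ∂μ := setLIntegral_le_lintegral _ _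
    _ = ∫⁻ t in Ioo (0 : ℝ) 1, (∫⁻ y, k (y + (t * h) • v) ∂μ) := by
        refine lintegral_lintegral_swap ?_
        refine Measurable.aemeasurable ?_
        exact hkm.comp (by fun_prop : Continuous fun p : E × ℝ => p.1 + (p.2 * h) • v).measurable
    _ = ∫⁻ _ in Ioo (0 : ℝ) 1, (∫⁻ y, k y ∂μ) := by
        refine lintegral_congr fun t => ?_
        exact lintegral_add_right_eq_self k _
    _ = ∫⁻ y in O, ENNReal.ofReal (fderiv ℝ f y v ^ 2) ∂μ := by
        rw [setLIntegral_const, Real.volume_Ioo, sub_zero, ENNReal.ofReal_one, mul_one, hk,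
          lintegral_indicator hO.measurableSet]

omit [SecondCountableTopology E] [SFinite μ] [μ.IsAddRightInvariant] in
/-- (B) If the difference quotients are bounded then so is the derivative. -/
theorem dq_fatou {f : E → ℝ} {O S : Set E} (hO : IsOpen O) (hf : ContDiffOn ℝ 1 f O)
    (hS : MeasurableSet S) (hSO : S ⊆ O) {v : E} {K : ℝ≥0∞} {δ : ℝ} (hδ : 0 < δ)
    (hv : ∀ y ∈ S, ∀ h, 0 < h → h < δ → y + h • v ∈ O)
    (hK : ∀ h, 0 < h → h < δ →
      ∫⁻ y in S, ENNReal.ofReal (((f (y + h • v) - f y) / h) ^ 2) ∂μ ≤ K) :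
    ∫⁻ y in S, ENNReal.ofReal (fderiv ℝ f y v ^ 2) ∂μ ≤ K := by
  set h : ℕ → ℝ := fun k => δ / (k + 2) with hh
  have h0 : ∀ k, 0 < h k := fun k => by positivity
  have h1 : ∀ k, h k < δ := fun k => by
    rw [hh]; simp only; rw [div_lt_iff₀ (by positivity)]
    nlinarith [Nat.cast_nonneg (α := ℝ) k]
  have h2 : Tendsto h atTop (𝓝[≠] 0) := by
    refine tendsto_nhdsWithin_iff.2 ⟨?_, Eventually.of_forall fun k => (h0 k).ne'⟩
    have : Tendsto (fun k : ℕ => ((k : ℝ) + 2)) atTop atTop :=
      tendsto_atTop_add_const_right _ _ tendsto_natCast_atTop_atTop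
    simpa using tendsto_const_nhds.div_atTop this
  have hlim : ∀ y ∈ S, Tendsto (fun k => ENNReal.ofReal (((f (y + h k • v) - f y) / h k) ^ 2)) atTop
      (𝓝 (ENNReal.ofReal (fderiv ℝ f y v ^ 2))) := by
    intro y hy
    have e2 : HasFDerivAt f (fderiv ℝ f y) y :=
      ((hf.contDiffAt (hO.mem_nhds (hSO hy))).differentiableAt one_ne_zero).hasFDerivAt
    have e1 : HasDerivAt (fun t : ℝ => f (y + t • v)) (fderiv ℝ f y v) 0 := by
      have e3 : HasDerivAt (fun t : ℝ => y + t • v) v 0 := by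
        simpa using ((hasDerivAt_id (0 : ℝ)).smul_const v).const_add y
      have e4 : HasFDerivAt f (fderiv ℝ f y) (y + (0 : ℝ) • v) := by simpa using e2
      exact e4.comp_hasDerivAt 0 e3
    have e5 := hasDerivAt_iff_tendsto_slope.1 e1
    have e6 := e5.comp h2
    have e7 : Tendsto (fun k => (f (y + h k • v) - f y) / h k) atTop (𝓝 (fderiv ℝ f y v)) := by
      refine e6.congr fun k => ?_
      simp [slope_def_field]
    exact (ENNReal.continuous_ofReal.tendsto _).comp (e7.pow 2)
  calc ∫⁻ y in S, ENNReal.ofReal (fderiv ℝ f y v ^ 2) ∂μ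
      = ∫⁻ y in S, liminf (fun k => ENNReal.ofReal (((f (y + h k • v) - f y) / h k) ^ 2)) atTop ∂μ :=
        setLIntegral_congr_fun hS fun y hy => ((hlim y hy).liminf_eq).symm
    _ ≤ liminf (fun k => ∫⁻ y in S, ENNReal.ofReal (((f (y + h k • v) - f y) / h k) ^ 2) ∂μ) atTop := by
        refine lintegral_liminf_le' fun k => ?_
        have hc0 : ContinuousOn f O := hf.continuousOn
        have hc1 : ContinuousOn (fun y => ((f (y + h k • v) - f y) / h k) ^ 2) S := by
          refine (ContinuousOn.div_const (ContinuousOn.sub ?_ (hc0.mono hSO)) _).pow 2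
          exact hc0.comp (by fun_prop) fun y hy => hv y hy _ (h0 k) (h1 k)
        exact (hc1.aemeasurable hS).ennreal_ofReal
    _ ≤ K := by
        refine liminf_le_of_frequently_le' (Eventually.frequently (Eventually.of_forall fun k => ?_))
        exact hK _ (h0 k) (h1 k)

end Vale.Agent.P088.R2.H850.DM
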