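import Vale.Agent.P088.R2.H850.DM.N0

/-!
# P088, SOLV row 6: slices and the Hardy type inequality at the boundary
-/

open MeasureTheory Set Filter Topology
open scoped ContDiff ENNReal

noncomputable section

namespace Vale.Agent.P088.R2.H850.DM

variable {n : ℕ}

/-- Slices: comparison of two integrals along lines. -/
theorem slice_le (i : Fin n) {F G : EuclideanSpace ℝ (Fin n) → ℝ≥0∞} (hF : Measurable F)
    (hG : Measurable G)
    (h : ∀ y : EuclideanSpace ℝ (Fin n), y i = 0 →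
      ∫⁻ t : ℝ, F (y + t • EuclideanSpace.single i (1 : ℝ)) ≤
      ∫⁻ t : ℝ, G (y + t • EuclideanSpace.single i (1 : ℝ))) :
    ∫⁻ y, F y ≤ ∫⁻ y, G y := by
  have hm := PiLp.volume_preserving_toLp (Fin n)
  rw [← hm.lintegral_comp hF, ← hm.lintegral_comp hG]
  have hF' : Measurable fun a : Fin n → ℝ => F (WithLp.toLp 2 a) := hF.comp hm.measurable
  have hG' : Measurable fun a : Fin n → ℝ => G (WithLp.toLp 2 a) := hG.comp hm.measurable
  refine lintegral_le_of_lmarginal_le {i} hF' hG' ?_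
  intro x
  simp only [lmarginal_singleton]
  have key : ∀ (t : ℝ), WithLp.toLp 2 (Function.update x i t) =
      WithLp.toLp 2 (Function.update x i 0) + t • EuclideanSpace.single i (1 : ℝ) := by
    intro t
    ext j
    by_cases hj : j = i
    · subst hj; simp
    · simp [hj]
  calc ∫⁻ t, F (WithLp.toLp 2 (Function.update x i t))
      = ∫⁻ t : ℝ, F (WithLp.toLp 2 (Function.update x i 0) + t • EuclideanSpace.single i (1 : ℝ)) :=
        lintegral_congr fun t => by rw [key t]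
    _ ≤ ∫⁻ t : ℝ, G (WithLp.toLp 2 (Function.update x i 0) + t • EuclideanSpace.single i (1 : ℝ)) :=
        h _ (by simp)
    _ = ∫⁻ t, G (WithLp.toLp 2 (Function.update x i t)) :=
        lintegral_congr fun t => by rw [key t]

/-- The one-dimensional inequality. -/
theorem hardy1 {g g' : ℝ → ℝ} {d e : ℝ} (hd : 0 < d) (hde : d ≤ e)
    (hg : ∀ x ∈ Ioo 0 e, HasDerivAt g (g' x) x) (hc : ContinuousOn g' (Ioo 0 e)) :
    ∫⁻ t in Ioo 0 e, ENNReal.ofReal (g t ^ 2) ≤
      ENNReal.ofReal (2 * e / d) * (∫⁻ t in Ioo 0 d, ENNReal.ofReal (g t ^ 2)) +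
      ENNReal.ofReal (2 * e ^ 2) * (∫⁻ t in Ioo 0 e, ENNReal.ofReal (g' t ^ 2)) := by
  set I := ∫⁻ t in Ioo 0 e, ENNReal.ofReal (g' t ^ 2) with hI
  have he : 0 < e := hd.trans_le hde
  -- increments
  have h1 : ∀ s ∈ Ioo 0 e, ∀ t ∈ Ioo 0 e, ENNReal.ofReal ((g t - g s) ^ 2) ≤
      ENNReal.ofReal e * I := by
    have h0 : ∀ s ∈ Ioo 0 e, ∀ t ∈ Ioo 0 e, s ≤ t → ENNReal.ofReal ((g t - g s) ^ 2) ≤
        ENNReal.ofReal e * I := by
      intro s hs t ht hst
      have hsub : Icc s t ⊆ Ioo 0 e := fun x hx => ⟨hs.1.trans_le hx.1, hx.2.trans_lt ht.2⟩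
      refine (cs2 hst (fun x hx => hg x (hsub hx)) (hc.mono hsub)).trans ?_
      refine mul_le_mul' (ENNReal.ofReal_le_ofReal (by linarith [hs.1, ht.2])) ?_
      exact lintegral_mono_set (Ioo_subset_Icc_self.trans hsub)
    intro s hs t ht
    rcases le_total s t with hst | hst
    · exact h0 s hs t ht hst
    · have := h0 t ht s hs hst
      rwa [show (g t - g s) ^ 2 = (g s - g t) ^ 2 by ring]
  have h2 : ∀ s ∈ Ioo 0 e, ∀ t ∈ Ioo 0 e, ENNReal.ofReal (g t ^ 2) ≤
      2 * ENNReal.ofReal (g s ^ 2) + 2 * (ENNReal.ofReal e * I) := by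
    intro s hs t ht
    calc ENNReal.ofReal (g t ^ 2) ≤ ENNReal.ofReal (2 * g s ^ 2 + 2 * (g t - g s) ^ 2) :=
          ENNReal.ofReal_le_ofReal (by nlinarith [sq_nonneg (g t - 2 * g s)])
      _ = 2 * ENNReal.ofReal (g s ^ 2) + 2 * ENNReal.ofReal ((g t - g s) ^ 2) := by
          rw [ENNReal.ofReal_add (by positivity) (by positivity),
            ENNReal.ofReal_mul (by norm_num), ENNReal.ofReal_mul (by norm_num)]
          norm_num
      _ ≤ _ := by gcongr; exact h1 s hs t ht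
  -- average over `s`
  have h3 : ∀ t ∈ Ioo 0 e, ENNReal.ofReal d * ENNReal.ofReal (g t ^ 2) ≤
      2 * (∫⁻ s in Ioo 0 d, ENNReal.ofReal (g s ^ 2)) +
        2 * (ENNReal.ofReal e * I) * ENNReal.ofReal d := by
    intro t ht
    have hsub : Ioo 0 d ⊆ Ioo 0 e := Ioo_subset_Ioo_right hde
    have hgc : ContinuousOn g (Ioo 0 d) := fun s hs =>
      (hg s (hsub hs)).continuousAt.continuousWithinAt
    have hm : AEMeasurable (fun s => 2 * ENNReal.ofReal (g s ^ 2)) (volume.restrict (Ioo 0 d)) :=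
      (((hgc.pow 2).aemeasurable measurableSet_Ioo).ennreal_ofReal).const_mul _
    calc ENNReal.ofReal d * ENNReal.ofReal (g t ^ 2)
        = ∫⁻ _ in Ioo 0 d, ENNReal.ofReal (g t ^ 2) := by
          rw [setLIntegral_const, Real.volume_Ioo, sub_zero, mul_comm]
      _ ≤ ∫⁻ s in Ioo 0 d, (2 * ENNReal.ofReal (g s ^ 2) + 2 * (ENNReal.ofReal e * I)) :=
          setLIntegral_mono' measurableSet_Ioo fun s hs => h2 s (hsub hs) t ht
      _ = _ := by
          rw [lintegral_add_left' hm, setLIntegral_const, Real.volume_Ioo, sub_zero,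
            lintegral_const_mul' _ _ (by norm_num)]
  -- integrate over `t`
  have h4 : ENNReal.ofReal d * ∫⁻ t in Ioo 0 e, ENNReal.ofReal (g t ^ 2) ≤
      (2 * (∫⁻ s in Ioo 0 d, ENNReal.ofReal (g s ^ 2)) +
        2 * (ENNReal.ofReal e * I) * ENNReal.ofReal d) * ENNReal.ofReal e := by
    rw [← lintegral_const_mul' _ _ ENNReal.ofReal_ne_top]
    calc ∫⁻ t in Ioo 0 e, ENNReal.ofReal d * ENNReal.ofReal (g t ^ 2)
        ≤ ∫⁻ _ in Ioo 0 e, (2 * (∫⁻ s in Ioo 0 d, ENNReal.ofReal (g s ^ 2)) +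
          2 * (ENNReal.ofReal e * I) * ENNReal.ofReal d) :=
          setLIntegral_mono' measurableSet_Ioo h3
      _ = _ := by rw [setLIntegral_const, Real.volume_Ioo, sub_zero]
  have hd0 : ENNReal.ofReal d ≠ 0 := (ENNReal.ofReal_pos.2 hd).ne'
  rw [← ENNReal.mul_le_mul_iff_right hd0 ENNReal.ofReal_ne_top]
  have a1 : ENNReal.ofReal d * ENNReal.ofReal (2 * e / d) = 2 * ENNReal.ofReal e := by
    rw [← ENNReal.ofReal_mul hd.le, show d * (2 * e / d) = 2 * e by field_simp,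
      ENNReal.ofReal_mul (by norm_num)]
    norm_num
  have a2 : ENNReal.ofReal d * ENNReal.ofReal (2 * e ^ 2) =
      2 * (ENNReal.ofReal e * (ENNReal.ofReal d * ENNReal.ofReal e)) := by
    rw [← ENNReal.ofReal_mul hd.le, show d * (2 * e ^ 2) = 2 * (e * (d * e)) by ring,
      ENNReal.ofReal_mul (by norm_num), ENNReal.ofReal_mul he.le, ENNReal.ofReal_mul hd.le]
    norm_num
  refine h4.trans (le_of_eq ?_)
  rw [mul_add, ← mul_assoc (ENNReal.ofReal d), ← mul_assoc (ENNReal.ofReal d), a1, a2]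
  ring

end Vale.Agent.P088.R2.H850.DM
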